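import Vale.Agent.H9.Snaky.Final

/-!
Maker wins the weak achievement game for Snaky on the empty plane, with no handicap.
The proof is a strategy stored as a table of patterns (`Vale.Agent.H9.Snaky.table`), checked by
the kernel with a checker proved sound in `Vale.Agent.H9.Snaky.Check`.
-/

namespace Vale.Agent.Results.P062.MakerWins

open Vale.Agent.H9.Snaky in
/-- Maker has a winning strategy in the achievement game for Snaky on the initially empty board
`ℤ × ℤ`, with no handicap; the win is forced within a fixed number of turns. -/
theorem result : MakerWinsWithin 3510 := maker_wins

end Vale.Agent.Results.P062.MakerWins
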